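import Vale.Agent.P173.Final

universe u

theorem Vale.Agent.Results.P173.A_full.result :
    ∃ (Γ : Type) (_ : Group Γ), Vale.Agent.P173.cohomDim Γ = 2 ∧
      ¬ Vale.Agent.P173.HasClassifyingSpaceDimLE.{u} Γ 2 :=
  Vale.Agent.P173.eilenberg_ganea_false
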